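import Vale.Agent.Lib.P266_helper23.Symbol

namespace Vale.Agent.Lib.P266_helper23

section Core

variable {A R : Type*} [CommRing A] [CommRing R] [Algebra ℂ A] [Algebra ℂ R]
  {F : ℕ → Ideal A} {𝒜 : ℕ → Submodule ℂ R} [GradedAlgebra 𝒜] {φ : ℕ → A → R}
  [IsDomain R] [Algebra.FiniteType ℂ R] [IsIntegrallyClosed R] {π : R → R → R} {k : ℕ}

/-- The standing assumptions of the core argument. -/
structure Ctx (F : ℕ → Ideal A) (𝒜 : ℕ → Submodule ℂ R) [GradedAlgebra 𝒜] (φ : ℕ → A → R)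
    (π : R → R → R) (k : ℕ) (Θ : A → A → A) (y : Fin 2 → R) (deg : Fin 2 → ℕ) : Prop where
  hG : IsAssocGraded F 𝒜 φ
  hπ : IsCanonicalBivector 𝒜 π k
  h0 : ∀ x ∈ 𝒜 0, ∃ c : ℂ, x = algebraMap ℂ R c
  hdeg : ∀ i, 0 < deg i
  hy : ∀ i, y i ∈ 𝒜 (deg i)
  hyalg : AlgebraicIndependent ℂ y
  hint : (MvPolynomial.aeval y : MvPolynomial (Fin 2) ℂ →ₐ[ℂ] R).toRingHom.IsIntegral
  hstable : ∀ (D : Derivation ℂ A A) (n : ℕ) (x : A), x ∈ F n → D x ∈ F n
  hΘ1 : ∀ i j x y, x ∈ F i → y ∈ F j → Θ x y ∈ F (i + j + k)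
  hΘ2 : ∀ i j x y, x ∈ F i → y ∈ F j → φ (i + j + k) (Θ x y) = π (φ i x) (φ j y)

variable {Θ : A → A → A} {y : Fin 2 → R} {deg : Fin 2 → ℕ}

/-- A pair of elements on which the symbol of `Θ` does not vanish. -/
theorem Ctx.exists_pair (C : Ctx F 𝒜 φ π k Θ y deg) :
    ∃ i j f g, f ∈ F i ∧ g ∈ F j ∧ π (φ i f) (φ j g) ≠ 0 := by
  by_contra hcon
  push Not at hcon
  obtain ⟨f1, g1, h1⟩ := C.hπ.ne_zero
  refine h1 (biderivation_eq_zero_of_homogeneous (𝒜 := 𝒜) C.hπ.bider ?_ f1 g1)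
  intro i j f g hf hg
  obtain ⟨x, hx, rfl⟩ := C.hG.φ_surj i f hf
  obtain ⟨x', hx', rfl⟩ := C.hG.φ_surj j g hg
  exact hcon i j x x' hx hx'

/-- The right-hand side of the basic relation has exact order. -/
theorem Ctx.rhs_not_mem (C : Ctx F 𝒜 φ π k Θ y deg) {i j ν : ℕ} {f g z w : A} (hf : f ∈ F i)
    (hg : g ∈ F j) (hne : π (φ i f) (φ j g) ≠ 0) (hz : z ∈ F ν) (hz0 : φ ν z ≠ 0) (hw : w ∉ F 1) :
    z * (w * Θ f g) ∉ F (ν + (i + j + k) + 1) := by
  have hw0 : w ∈ F 0 := by rw [C.hG.F_zero]; trivial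
  have hw1 : φ 0 w ≠ 0 := fun h => hw ((C.hG.φ_eq_zero 0 w hw0).mp h)
  have h1 := C.hΘ1 i j f g hf hg
  have h2 : w * Θ f g ∈ F (i + j + k) := C.hG.F_mul' (by omega) hw0 h1
  have h3 : φ (i + j + k) (w * Θ f g) = φ 0 w * π (φ i f) (φ j g) := by
    rw [C.hG.φ_mul' (by omega) hw0 h1, C.hΘ2 i j f g hf hg]
  have h4 : z * (w * Θ f g) ∈ F (ν + (i + j + k)) := C.hG.F_mul _ _ _ _ hz h2
  intro hmem
  have h5 := (C.hG.φ_eq_zero _ _ h4).mpr hmem
  rw [C.hG.φ_mul _ _ _ _ hz h2, h3] at h5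
  exact (mul_ne_zero hz0 (mul_ne_zero hw1 hne)) h5

/-- The order bound. -/
theorem Ctx.weak_star (C : Ctx F 𝒜 φ π k Θ y deg) (X Y : Derivation ℂ A A) {a b ν : ℕ}
    (hX : HasOrder F X a) (hY : HasOrder F Y b) (c z w : A) (hz : z ∈ F ν) (hz0 : φ ν z ≠ 0)
    (hw : w ∉ F 1)
    (hrel : ∀ f g, c * (X f * Y g - X g * Y f) = z * (w * Θ f g)) : a + b ≤ ν + k := by
  by_contra hcon
  obtain ⟨i, j, f, g, hf, hg, hne⟩ := C.exists_pair
  apply C.rhs_not_mem hf hg hne hz hz0 hw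
  rw [← hrel f g]
  refine Ideal.mul_mem_left _ _ (C.hG.F_le (i := ν + (i + j + k) + 1) (j := a + b + i + j)
    (by omega) ?_)
  refine Ideal.sub_mem _ (C.hG.F_mul' (by omega) (hX i f hf) (hY j g hg))
    (C.hG.F_mul' (by omega) (hX j g hg) (hY i f hf))

/-- The strict order bound for fields of order at most `k`: their symbols are radial. -/
theorem Ctx.strong_star (C : Ctx F 𝒜 φ π k Θ y deg) (X Y : Derivation ℂ A A) {a b ν : ℕ}
    (hX : HasOrder F X a) (hY : HasOrder F Y b) (ha : a ≤ k) (hb : b ≤ k) (c z w : A)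
    (hz : z ∈ F ν) (hz0 : φ ν z ≠ 0) (hw : w ∉ F 1)
    (hrel : ∀ f g, c * (X f * Y g - X g * Y f) = z * (w * Θ f g)) : a + b < ν + k := by
  by_contra hcon
  obtain ⟨i, j, f, g, hf, hg, hne⟩ := C.exists_pair
  obtain ⟨pX, -, hpX⟩ := exists_radial_symbol C.hG C.hπ C.h0 y deg C.hdeg C.hy C.hyalg C.hint X ha hX
  obtain ⟨pY, -, hpY⟩ := exists_radial_symbol C.hG C.hπ C.h0 y deg C.hdeg C.hy C.hyalg C.hint Y hb hY
  apply C.rhs_not_mem hf hg hne hz hz0 hw
  rw [← hrel f g]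
  have hT : a + b + i + j = (i + a) + (j + b) := by omega
  have hT' : a + b + i + j = (j + a) + (i + b) := by omega
  have h1 : X f * Y g ∈ F (a + b + i + j) := C.hG.F_mul' hT (hX i f hf) (hY j g hg)
  have h2 : X g * Y f ∈ F (a + b + i + j) := C.hG.F_mul' hT' (hX j g hg) (hY i f hf)
  have h3 : φ (a + b + i + j) (X f * Y g) = φ (a + b + i + j) (X g * Y f) := by
    rw [C.hG.φ_mul' hT (hX i f hf) (hY j g hg), C.hG.φ_mul' hT' (hX j g hg) (hY i f hf),
      hpX i f hf, hpY j g hg, hpX j g hg, hpY i f hf]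
    simp only [Algebra.smul_def]
    ring
  have h4 := C.hG.sub_mem_of_φ_eq h1 h2 h3
  refine Ideal.mul_mem_left _ _ (C.hG.F_le (i := ν + (i + j + k) + 1) (j := a + b + i + j + 1)
    (by omega) h4)

theorem Ctx.hasOrder_zero (C : Ctx F 𝒜 φ π k Θ y deg) (X : Derivation ℂ A A) : HasOrder F X 0 :=
  fun i x hx => by simpa using C.hstable X i x hx

theorem Ctx.one_mem (C : Ctx F 𝒜 φ π k Θ y deg) : (1 : A) ∈ F 0 := by
  rw [C.hG.F_zero]; trivial

theorem Ctx.φ_one_ne (C : Ctx F 𝒜 φ π k Θ y deg) {w : A} (hw : w ∉ F 1) : φ 0 (1 : A) ≠ 0 := by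
  intro h
  have h1 := (C.hG.φ_eq_zero 0 1 C.one_mem).mp h
  apply hw
  have := Ideal.mul_mem_left _ w h1
  rwa [mul_one] at this

/-- A field has an exact order as soon as it enters a basic relation. -/
theorem Ctx.exists_exact (C : Ctx F 𝒜 φ π k Θ y deg) (X Y : Derivation ℂ A A) (c w : A)
    (hw : w ∉ F 1) (hrel : ∀ f g, c * (X f * Y g - X g * Y f) = 1 * (w * Θ f g)) :
    ∃ n, n ≤ k ∧ HasOrder F X n ∧ ¬ HasOrder F X (n + 1) := by
  by_contra hcon
  push Not at hcon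
  have hall : ∀ n, n ≤ k + 1 → HasOrder F X n := by
    intro n
    induction n with
    | zero => exact fun _ => C.hasOrder_zero X
    | succ n ih =>
      intro hn
      exact hcon n (by omega) (ih (by omega))
  have h := C.weak_star X Y (hall (k + 1) le_rfl) (C.hasOrder_zero Y) c 1 w C.one_mem
    (C.φ_one_ne hw) hw hrel
  omega

/-- The symbol of a field of exact order `n ≤ k` is a nonzero multiple of the Euler field. -/
theorem Ctx.exact_symbol (C : Ctx F 𝒜 φ π k Θ y deg) (X : Derivation ℂ A A) {n : ℕ} (hn : n ≤ k)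
    (h1 : HasOrder F X n) (h2 : ¬ HasOrder F X (n + 1)) :
    ∃ p ∈ 𝒜 n, p ≠ 0 ∧ ∀ i x, x ∈ F i → φ (i + n) (X x) = (i : ℂ) • (p * φ i x) := by
  obtain ⟨p, hp, hp2⟩ := exists_radial_symbol C.hG C.hπ C.h0 y deg C.hdeg C.hy C.hyalg C.hint X hn h1
  refine ⟨p, hp, ?_, hp2⟩
  rintro rfl
  apply h2
  intro i x hx
  have h3 := (C.hG.φ_eq_zero _ _ (h1 i x hx)).mp (by rw [hp2 i x hx]; simp)
  rwa [add_assoc] at h3

/-- A field of the basis cannot have exact order zero. -/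
theorem Ctx.not_order_zero (C : Ctx F 𝒜 φ π k Θ y deg) (D1 D2 : Derivation ℂ A A) (c w : A)
    (hw : w ∉ F 1) (hrel : ∀ f g, c * (D1 f * D2 g - D1 g * D2 f) = 1 * (w * Θ f g))
    (hnot : ¬ HasOrder F D1 (0 + 1)) : False := by
  obtain ⟨p1, hp1, hp1ne, hp1'⟩ := C.exact_symbol D1 (Nat.zero_le k) (C.hasOrder_zero D1) hnot
  obtain ⟨c1, hc1⟩ := C.h0 p1 hp1
  have hc1ne : c1 ≠ 0 := by
    rintro rfl
    exact hp1ne (by rw [hc1, map_zero])
  have hinv : algebraMap ℂ R c1⁻¹ * algebraMap ℂ R c1 = 1 := by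
    rw [← map_mul, inv_mul_cancel₀ hc1ne, map_one]
  have key : ∀ N, N ≤ k + 1 → ∃ E : A, HasOrder F (D2 - E • D1) N := by
    intro N
    induction N with
    | zero => exact fun _ => ⟨0, C.hasOrder_zero _⟩
    | succ N ih =>
      intro hN
      obtain ⟨E, hE⟩ := ih (by omega)
      obtain ⟨p3, hp3, hp3'⟩ := exists_radial_symbol C.hG C.hπ C.h0 y deg C.hdeg C.hy C.hyalg
        C.hint (D2 - E • D1) (by omega : N ≤ k) hE
      obtain ⟨P3, hP3, hP3'⟩ := C.hG.φ_surj N p3 hp3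
      refine ⟨E + c1⁻¹ • P3, fun i x hx => ?_⟩
      have hP3c : c1⁻¹ • P3 ∈ F N := by
        rw [Algebra.smul_def]
        exact Ideal.mul_mem_left _ _ hP3
      have hb : (c1⁻¹ • P3) * D1 x ∈ F (i + N) :=
        C.hG.F_mul' (by omega) hP3c (C.hstable D1 i x hx)
      have h1 := C.hG.sub_mem_of_φ_eq (hE i x hx) hb (by
        rw [hp3' i x hx, C.hG.φ_mul' (by omega) hP3c (C.hstable D1 i x hx),
          C.hG.φ_smul _ _ _ hP3, hP3']
        have h2 := hp1' i x hx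
        rw [Nat.add_zero] at h2
        rw [h2, hc1]
        simp only [Algebra.smul_def]
        linear_combination (- algebraMap ℂ R (i : ℂ) * p3 * φ i x) * hinv)
      have h3 : (D2 - (E + c1⁻¹ • P3) • D1) x = (D2 - E • D1) x - (c1⁻¹ • P3) * D1 x := by
        simp only [Derivation.sub_apply, Derivation.smul_apply, smul_eq_mul, add_mul]
        ring
      rw [h3]
      rwa [← add_assoc]
  obtain ⟨E, hE⟩ := key (k + 1) le_rfl
  have h := C.weak_star D1 (D2 - E • D1) (C.hasOrder_zero D1) hE c 1 w C.one_mem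
    (C.φ_one_ne hw) hw (fun f g => by
      rw [← hrel f g]
      simp only [Derivation.sub_apply, Derivation.smul_apply, smul_eq_mul]
      ring)
  omega

/-- **Core theorem.** If `Θ` is a bivector of `A` with symbol the canonical bivector of the
associated graded ring, whose degree `k` is at most `2 d + 1`, where `𝒜 j = 0` for `0 < j < d`, then
`Θ` is not, up to a unit, divisible by a decomposable bivector. -/
theorem Ctx.core (C : Ctx F 𝒜 φ π k Θ y deg) (D1 D2 : Derivation ℂ A A) (c w : A)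
    (hw : w ∉ F 1) (hrel : ∀ f g, w * Θ f g = c * (D1 f * D2 g - D2 f * D1 g)) (d : ℕ)
    (hgap : ∀ j, 0 < j → j < d → 𝒜 j = ⊥) (hk : k ≤ 2 * d + 1) : False := by
  have hrel12 : ∀ f g, c * (D1 f * D2 g - D1 g * D2 f) = 1 * (w * Θ f g) := fun f g => by
    rw [one_mul, hrel]
    ring
  have hrel21 : ∀ f g, (-c) * (D2 f * D1 g - D2 g * D1 f) = 1 * (w * Θ f g) := fun f g => by
    rw [one_mul, hrel]
    ring
  obtain ⟨n1, hn1k, h1a, h1b⟩ := C.exists_exact D1 D2 c w hw hrel12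
  obtain ⟨n2, hn2k, h2a, h2b⟩ := C.exists_exact D2 D1 (-c) w hw hrel21
  have hn1 : n1 ≠ 0 := by
    rintro rfl
    exact C.not_order_zero D1 D2 c w hw hrel12 h1b
  have hn2 : n2 ≠ 0 := by
    rintro rfl
    exact C.not_order_zero D2 D1 (-c) w hw hrel21 h2b
  obtain ⟨p1, hp1, hp1ne, hp1'⟩ := C.exact_symbol D1 hn1k h1a h1b
  obtain ⟨p2, hp2, hp2ne, hp2'⟩ := C.exact_symbol D2 hn2k h2a h2b
  have hd1 : d ≤ n1 := by
    by_contra hlt
    have h := hgap n1 (Nat.pos_of_ne_zero hn1) (by omega)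
    rw [h, Submodule.mem_bot] at hp1
    exact hp1ne hp1
  have hd2 : d ≤ n2 := by
    by_contra hlt
    have h := hgap n2 (Nat.pos_of_ne_zero hn2) (by omega)
    rw [h, Submodule.mem_bot] at hp2
    exact hp2ne hp2
  obtain ⟨P1, hP1, hP1'⟩ := C.hG.φ_surj n1 p1 hp1
  obtain ⟨P2, hP2, hP2'⟩ := C.hG.φ_surj n2 p2 hp2
  -- the field `ξ = P2 D1 - P1 D2`
  have hξ : HasOrder F (P2 • D1 - P1 • D2) (n1 + n2 + 1) := by
    intro i x hx
    have hl1 : i + (n1 + n2) = n2 + (i + n1) := by omega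
    have hl2 : i + (n1 + n2) = n1 + (i + n2) := by omega
    have ha : P2 * D1 x ∈ F (i + (n1 + n2)) := C.hG.F_mul' hl1 hP2 (h1a i x hx)
    have hb : P1 * D2 x ∈ F (i + (n1 + n2)) := C.hG.F_mul' hl2 hP1 (h2a i x hx)
    have h1 := C.hG.sub_mem_of_φ_eq ha hb (by
      rw [C.hG.φ_mul' hl1 hP2 (h1a i x hx), C.hG.φ_mul' hl2 hP1 (h2a i x hx), hp1' i x hx,
        hp2' i x hx, hP1', hP2']
      simp only [Algebra.smul_def]
      ring)
    have h3 : (P2 • D1 - P1 • D2) x = P2 * D1 x - P1 * D2 x := by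
      simp only [Derivation.sub_apply, Derivation.smul_apply, smul_eq_mul]
    rw [h3]
    rwa [← add_assoc]
  have hrelξ : ∀ f g, c * (D1 f * (P2 • D1 - P1 • D2) g - D1 g * (P2 • D1 - P1 • D2) f) =
      (-P1) * (w * Θ f g) := fun f g => by
    rw [hrel]
    simp only [Derivation.sub_apply, Derivation.smul_apply, smul_eq_mul]
    ring
  have hz : -P1 ∈ F n1 := (F n1).neg_mem hP1
  have hz0 : φ n1 (-P1) ≠ 0 := by
    rw [C.hG.φ_neg hP1, hP1']
    exact neg_ne_zero.mpr hp1ne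
  have hweak := C.weak_star D1 _ h1a hξ c (-P1) w hz hz0 hw hrelξ
  have hstrong := C.strong_star D1 _ h1a hξ hn1k (by omega) c (-P1) w hz hz0 hw hrelξ
  omega

end Core

end Vale.Agent.Lib.P266_helper23
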