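import Mathlib

namespace Vale.Agent.Lib.P266_helper23

/-- `B` is an alternating `ℂ`-biderivation of `R` (a bivector field, that is, an `R`-linear map
from `Ω²` to `R`): it is `ℂ`-bilinear, antisymmetric and a derivation in its first argument (hence
in both). -/
structure IsAltBider {R : Type*} [CommRing R] [Algebra ℂ R] (B : R → R → R) : Prop where
  add_left : ∀ f g h, B (f + g) h = B f h + B g h
  smul_left : ∀ (c : ℂ) (f h : R), B (c • f) h = c • B f h
  mul_left : ∀ f g h, B (f * g) h = f * B g h + g * B f h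
  antisymm : ∀ f g, B f g = - B g f

/-- `(R, 𝒜)` is the associated graded ring of the descending multiplicative filtration `F` of `A`
by ideals, `φ n` being the symbol map from `F n` onto `𝒜 n` with kernel `F (n + 1)`. -/
structure IsAssocGraded {A R : Type*} [CommRing A] [CommRing R] [Algebra ℂ A] [Algebra ℂ R]
    (F : ℕ → Ideal A) (𝒜 : ℕ → Submodule ℂ R) (φ : ℕ → A → R) : Prop where
  F_zero : F 0 = ⊤
  F_anti : ∀ n, F (n + 1) ≤ F n
  F_mul : ∀ i j x y, x ∈ F i → y ∈ F j → x * y ∈ F (i + j)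
  φ_mem : ∀ n x, x ∈ F n → φ n x ∈ 𝒜 n
  φ_add : ∀ n x y, x ∈ F n → y ∈ F n → φ n (x + y) = φ n x + φ n y
  φ_smul : ∀ n (c : ℂ) x, x ∈ F n → φ n (c • x) = c • φ n x
  φ_eq_zero : ∀ n x, x ∈ F n → (φ n x = 0 ↔ x ∈ F (n + 1))
  φ_surj : ∀ n r, r ∈ 𝒜 n → ∃ x ∈ F n, φ n x = r
  φ_mul : ∀ i j x y, x ∈ F i → y ∈ F j → φ (i + j) (x * y) = φ i x * φ j y

/-- `π` is a nonzero homogeneous bivector of degree `k` of the graded ring `R` generating the
module of all alternating biderivations of `R`. For `R` normal this says that the canonical module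
of `R` is free with generator in degree `-k`: `R` is Gorenstein with `a`-invariant `k`. -/
structure IsCanonicalBivector {R : Type*} [CommRing R] [Algebra ℂ R] (𝒜 : ℕ → Submodule ℂ R)
    (π : R → R → R) (k : ℕ) : Prop where
  bider : IsAltBider π
  ne_zero : ∃ f g, π f g ≠ 0
  degree : ∀ i j f g, f ∈ 𝒜 i → g ∈ 𝒜 j → π f g ∈ 𝒜 (i + j + k)
  generates : ∀ B : R → R → R, IsAltBider B → ∃ r, ∀ f g, B f g = r * π f g

end Vale.Agent.Lib.P266_helper23
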