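import Vale.Agent.Lib.P266_helper23.Defs

namespace Vale.Agent.Lib.P266_helper23

section Extract

variable {A : Type*} [CommRing A] [IsDomain A] [Algebra ℂ A] [Algebra.FiniteType ℂ A]

/-- A free basis of rank two of the localized module of derivations, cleared of denominators. -/
theorem exists_spanning_pair (m : Ideal A) [hm : m.IsPrime]
    (b : Module.Basis (Fin 2) (Localization.AtPrime m)
      (LocalizedModule m.primeCompl (Derivation ℂ A A))) :
    ∃ D0 D1 : Derivation ℂ A A,
      (∀ D : Derivation ℂ A A, ∃ s, s ∉ m ∧ ∃ c0 c1 : A, s • D = c0 • D0 + c1 • D1) ∧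
      (∀ c0 c1 : A, c0 • D0 + c1 • D1 = 0 → c0 = 0 ∧ c1 = 0) := by
  classical
  let O := Localization.AtPrime m
  let M := Derivation ℂ A A
  let N := LocalizedModule m.primeCompl M
  let f0 : M →ₗ[A] N := LocalizedModule.mkLinearMap m.primeCompl M
  have hinj : Function.Injective (algebraMap A O) :=
    IsLocalization.injective O m.primeCompl_le_nonZeroDivisors
  have hsurj : ∀ n : N, ∃ x : M × m.primeCompl, x.2 • n = f0 x.1 :=
    fun n => IsLocalizedModule.surj m.primeCompl f0 n
  obtain ⟨⟨D0, s0⟩, h0⟩ := hsurj (b 0)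
  obtain ⟨⟨D1, s1⟩, h1⟩ := hsurj (b 1)
  simp only at h0 h1
  have hs : ∀ (a : A) (n : N), a • n = algebraMap A O a • n := fun a n =>
    (algebraMap_smul O a n).symm
  refine ⟨D0, D1, ?_, ?_⟩
  · intro D
    obtain ⟨l0, t0, ht0⟩ := IsLocalization.exists_mk'_eq m.primeCompl (b.repr (f0 D) 0)
    obtain ⟨l1, t1, ht1⟩ := IsLocalization.exists_mk'_eq m.primeCompl (b.repr (f0 D) 1)
    have ht0' : algebraMap A O (t0 : A) * b.repr (f0 D) 0 = algebraMap A O l0 := by
      rw [← ht0, mul_comm, IsLocalization.mk'_spec]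
    have ht1' : algebraMap A O (t1 : A) * b.repr (f0 D) 1 = algebraMap A O l1 := by
      rw [← ht1, mul_comm, IsLocalization.mk'_spec]
    have hsum : f0 D = b.repr (f0 D) 0 • b 0 + b.repr (f0 D) 1 • b 1 := by
      have := b.sum_repr (f0 D)
      rw [Fin.sum_univ_two] at this
      exact this.symm
    have hkey : f0 (((t0 : A) * (t1 : A) * (s0 : A) * (s1 : A)) • D) =
        f0 (((t1 : A) * (s1 : A) * l0) • D0 + ((t0 : A) * (s0 : A) * l1) • D1) := by
      rw [map_add, map_smul, map_smul, map_smul, ← h0, ← h1]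
      change _ • f0 D = _
      rw [hsum]
      have h0' : (s0 • b 0 : N) = (s0 : A) • b 0 := rfl
      have h1' : (s1 • b 1 : N) = (s1 : A) • b 1 := rfl
      rw [h0', h1']
      simp only [hs, smul_smul, smul_add, ← map_mul]
      have e0 : algebraMap A O ((t0 : A) * (t1 : A) * (s0 : A) * (s1 : A)) * b.repr (f0 D) 0 =
          algebraMap A O ((t1 : A) * (s1 : A) * l0 * (s0 : A)) := by
        simp only [map_mul, ← ht0']
        ring
      have e1 : algebraMap A O ((t0 : A) * (t1 : A) * (s0 : A) * (s1 : A)) * b.repr (f0 D) 1 =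
          algebraMap A O ((t0 : A) * (s0 : A) * l1 * (s1 : A)) := by
        simp only [map_mul, ← ht1']
        ring
      rw [e0, e1]
    obtain ⟨u, hu⟩ := IsLocalizedModule.exists_of_eq (S := m.primeCompl) hkey
    refine ⟨(u : A) * ((t0 : A) * (t1 : A) * (s0 : A) * (s1 : A)), ?_,
      (u : A) * ((t1 : A) * (s1 : A) * l0), (u : A) * ((t0 : A) * (s0 : A) * l1), ?_⟩
    · intro h
      have hmem : ∀ v : m.primeCompl, (v : A) ∉ m := fun v => v.2
      rcases hm.mem_or_mem h with h | h
      · exact hmem u h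
      rcases hm.mem_or_mem h with h | h
      · rcases hm.mem_or_mem h with h | h
        · rcases hm.mem_or_mem h with h | h
          · exact hmem t0 h
          · exact hmem t1 h
        · exact hmem s0 h
      · exact hmem s1 h
    · have hu' : (u : A) • (((t0 : A) * (t1 : A) * (s0 : A) * (s1 : A)) • D) =
          (u : A) • (((t1 : A) * (s1 : A) * l0) • D0 + ((t0 : A) * (s0 : A) * l1) • D1) := hu
      rw [mul_smul (u : A) _ D, mul_smul (u : A) _ D0, mul_smul (u : A) _ D1, ← smul_add]
      exact hu'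
  · intro c0 c1 hc
    have h2 : f0 (c0 • D0 + c1 • D1) = 0 := by rw [hc, map_zero]
    rw [map_add, map_smul, map_smul, ← h0, ← h1] at h2
    have h0' : (s0 • b 0 : N) = (s0 : A) • b 0 := rfl
    have h1' : (s1 • b 1 : N) = (s1 : A) • b 1 := rfl
    rw [h0', h1'] at h2
    simp only [hs, smul_smul, ← map_mul] at h2
    have hli := Fintype.linearIndependent_iff.mp b.linearIndependent
      (fun i => if i = 0 then algebraMap A O (c0 * (s0 : A)) else algebraMap A O (c1 * (s1 : A)))
      (by rw [Fin.sum_univ_two]; simpa using h2)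
    have hs0 : (s0 : A) ≠ 0 := fun h => s0.2 (by rw [h]; exact m.zero_mem)
    have hs1 : (s1 : A) ≠ 0 := fun h => s1.2 (by rw [h]; exact m.zero_mem)
    have e0 := hli 0
    have e1 := hli 1
    simp only [if_true, one_ne_zero, if_false] at e0 e1
    have e0' : c0 * (s0 : A) = 0 := hinj (by rw [e0, map_zero])
    have e1' : c1 * (s1 : A) = 0 := hinj (by rw [e1, map_zero])
    exact ⟨(mul_eq_zero.mp e0').resolve_right hs0, (mul_eq_zero.mp e1').resolve_right hs1⟩

/-- A function with values in `K` satisfying the Leibniz rule with a denominator at each point has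
a common denominator, and it is then given by a derivation of `A`. -/
theorem exists_derivation_of_denominators {K : Type*} [Field K] [Algebra A K] [IsFractionRing A K]
    (m : Ideal A) [hm : m.IsPrime] (d : A → K)
    (hadd : ∀ x y, d (x + y) = d x + d y)
    (hsmul : ∀ (c : ℂ) x, d (algebraMap ℂ A c * x) = algebraMap A K (algebraMap ℂ A c) * d x)
    (hmul : ∀ x y, d (x * y) = algebraMap A K x * d y + algebraMap A K y * d x)
    (hden : ∀ x, ∃ s, s ∉ m ∧ ∃ t, algebraMap A K s * d x = algebraMap A K t) :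
    ∃ s, s ∉ m ∧ ∃ D : Derivation ℂ A A, ∀ x, algebraMap A K (D x) = algebraMap A K s * d x := by
  classical
  have hinj : Function.Injective (algebraMap A K) := IsFractionRing.injective A K
  obtain ⟨gens, hgens⟩ := Algebra.FiniteType.out (R := ℂ) (A := A)
  choose f hfm g hg using hden
  refine ⟨∏ x ∈ gens, f x, ?_, ?_⟩
  · intro h
    obtain ⟨x, -, hx⟩ := (hm.prod_mem_iff).mp h
    exact hfm x hx
  set s := ∏ x ∈ gens, f x with hs
  have hall : ∀ a : A, ∃ b : A, algebraMap A K b = algebraMap A K s * d a := by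
    intro a
    have ha : a ∈ Algebra.adjoin ℂ (gens : Set A) := by rw [hgens]; exact Algebra.mem_top
    induction ha using Algebra.adjoin_induction with
    | mem x hx =>
      obtain ⟨c, hc⟩ : f x ∣ s := Finset.dvd_prod_of_mem f hx
      refine ⟨c * g x, ?_⟩
      rw [map_mul, ← hg x, hc, map_mul]
      ring
    | algebraMap r =>
      have h1 : d (algebraMap ℂ A r) = 0 := by
        have h2 := hsmul r 1
        have h3 := hmul (algebraMap ℂ A r) 1
        rw [mul_one] at h2 h3
        rw [h2] at h3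
        have h4 := hmul 1 1
        rw [mul_one, map_one, one_mul] at h4
        have h5 : d 1 = 0 := by linear_combination -h4
        rw [h2, h5, mul_zero]
      exact ⟨0, by rw [h1]; simp⟩
    | add x y _ _ hx hy =>
      obtain ⟨b1, h1⟩ := hx
      obtain ⟨b2, h2⟩ := hy
      exact ⟨b1 + b2, by rw [map_add, h1, h2, hadd]; ring⟩
    | mul x y _ _ hx hy =>
      obtain ⟨b1, h1⟩ := hx
      obtain ⟨b2, h2⟩ := hy
      refine ⟨x * b2 + y * b1, ?_⟩
      rw [map_add, map_mul, map_mul, h1, h2, hmul]
      ring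
  choose D hD using hall
  let L : A →ₗ[ℂ] A :=
    { toFun := D
      map_add' := fun x y => hinj (by
        rw [map_add, hD, hD, hD, hadd]
        ring)
      map_smul' := fun c x => hinj (by
        simp only [RingHom.id_apply]
        rw [hD, Algebra.smul_def c x, hsmul, Algebra.smul_def c (D x), map_mul, hD]
        ring) }
  have hL : ∀ x, L x = D x := fun _ => rfl
  refine ⟨Derivation.mk' L fun x y => hinj ?_, hD⟩
  simp only [smul_eq_mul, hL]
  rw [map_add, map_mul, map_mul, hD, hD, hD, hmul]
  ring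

/-- **From a rank two free basis of `Der` to the basic relation.** If `Der_ℂ(A)` is free of rank two
at `m`, then every alternating biderivation of `A` is at `m` a multiple of a decomposable bivector. -/
theorem exists_relation (m : Ideal A) [hm : m.IsPrime]
    (b : Module.Basis (Fin 2) (Localization.AtPrime m)
      (LocalizedModule m.primeCompl (Derivation ℂ A A)))
    (Θ : A → A → A) (hΘ : IsAltBider Θ) :
    ∃ D0 D1 : Derivation ℂ A A, ∃ c w : A, w ∉ m ∧
      ∀ f g, w * Θ f g = c * (D0 f * D1 g - D1 f * D0 g) := by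
  classical
  obtain ⟨D0, D1, hspan, hind⟩ := exists_spanning_pair m b
  let K := FractionRing A
  let ι := algebraMap A K
  have hιinj : Function.Injective ι := IsFractionRing.injective A K
  -- the independence over `K`
  have hpair : ∃ f1 f2, D0 f1 * D1 f2 - D1 f1 * D0 f2 ≠ 0 := by
    by_contra hcon
    push Not at hcon
    have hD0 : ∃ g, D0 g ≠ 0 := by
      by_contra h
      push Not at h
      have h1 := hind 1 0 (by ext x; simp [h x])
      exact one_ne_zero h1.1
    obtain ⟨g, hg⟩ := hD0
    have h2 := hind (- D1 g) (D0 g) (by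
      ext x
      simp only [Derivation.add_apply, Derivation.smul_apply, smul_eq_mul, Derivation.coe_zero,
        Pi.zero_apply]
      linear_combination hcon g x)
    exact hg h2.2
  obtain ⟨f1, f2, hδ⟩ := hpair
  let δ : K := ι (D0 f1 * D1 f2 - D1 f1 * D0 f2)
  have hδK : δ ≠ 0 := (map_ne_zero_iff _ hιinj).mpr hδ
  have hcramer : ∀ α β : K, α * ι (D0 f1) + β * ι (D1 f1) = 0 →
      α * ι (D0 f2) + β * ι (D1 f2) = 0 → α = 0 ∧ β = 0 := by
    intro α β h1 h2
    constructor
    · apply (mul_eq_zero.mp (?_ : α * δ = 0)).resolve_right hδK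
      simp only [δ, map_sub, map_mul]
      linear_combination ι (D1 f2) * h1 - ι (D1 f1) * h2
    · apply (mul_eq_zero.mp (?_ : β * δ = 0)).resolve_right hδK
      simp only [δ, map_sub, map_mul]
      linear_combination ι (D0 f1) * h2 - ι (D0 f2) * h1
  -- the derivation `Θ f`
  have hself : ∀ f, Θ f f = 0 := by
    intro f
    have h1 := hΘ.antisymm f f
    have h2 : (2 : A) * Θ f f = 0 := by linear_combination h1
    have h3 : (2 : A) ≠ 0 := by
      have : ((2 : ℂ)) ≠ 0 := two_ne_zero
      have h4 : algebraMap ℂ A 2 ≠ 0 :=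
        (map_ne_zero_iff _ (FaithfulSMul.algebraMap_injective ℂ A)).mpr this
      intro h
      exact h4 ((map_ofNat (algebraMap ℂ A) 2).trans h)
    exact (mul_eq_zero.mp h2).resolve_left h3
  let Θd : A → Derivation ℂ A A := fun f =>
    Derivation.mk' ⟨⟨fun g => Θ f g, fun g h => by
        change Θ f (g + h) = Θ f g + Θ f h
        rw [hΘ.antisymm, hΘ.add_left, hΘ.antisymm g, hΘ.antisymm h]
        ring⟩,
      fun c g => by
        simp only [RingHom.id_apply]
        rw [hΘ.antisymm, hΘ.smul_left, hΘ.antisymm g, smul_neg, neg_neg]⟩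
      fun g h => by
        change Θ f (g * h) = g • Θ f h + h • Θ f g
        rw [hΘ.antisymm, hΘ.mul_left, hΘ.antisymm h, hΘ.antisymm g]
        simp only [smul_eq_mul]
        ring
  have hΘd : ∀ f g, Θd f g = Θ f g := fun _ _ => rfl
  -- the coefficient
  let γ : K := ι (Θ f1 f2) / δ
  have hγδ : γ * δ = ι (Θ f1 f2) := div_mul_cancel₀ _ hδK
  -- each `Θ f` is a combination of `D0` and `D1` over `K`
  have hform : ∀ f, ∃ α β : K, ∀ g, ι (Θ f g) - γ * (ι (D0 f) * ι (D1 g) - ι (D1 f) * ι (D0 g)) =
      α * ι (D0 g) + β * ι (D1 g) := by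
    intro f
    obtain ⟨s, hs, c0, c1, hrel⟩ := hspan (Θd f)
    have hs0 : ι s ≠ 0 := (map_ne_zero_iff _ hιinj).mpr (fun h => hs (by rw [h]; exact m.zero_mem))
    refine ⟨ι c0 / ι s + γ * ι (D1 f), ι c1 / ι s - γ * ι (D0 f), fun g => ?_⟩
    have h1 := congrArg (fun D : Derivation ℂ A A => ι (D g)) hrel
    simp only [Derivation.smul_apply, Derivation.add_apply, smul_eq_mul, hΘd, map_add, map_mul] at h1
    have h2 : ι (Θ f g) = (ι c0 * ι (D0 g) + ι c1 * ι (D1 g)) / ι s := by
      rw [eq_div_iff hs0, ← h1]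
      ring
    rw [h2]
    ring
  have hvan : ∀ f, (ι (Θ f f1) - γ * (ι (D0 f) * ι (D1 f1) - ι (D1 f) * ι (D0 f1)) = 0 ∧
      ι (Θ f f2) - γ * (ι (D0 f) * ι (D1 f2) - ι (D1 f) * ι (D0 f2)) = 0) →
      ∀ g, ι (Θ f g) - γ * (ι (D0 f) * ι (D1 g) - ι (D1 f) * ι (D0 g)) = 0 := by
    rintro f ⟨h1, h2⟩ g
    obtain ⟨α, β, hαβ⟩ := hform f
    rw [hαβ] at h1 h2
    obtain ⟨ha, hb⟩ := hcramer α β h1 h2
    rw [hαβ, ha, hb]
    ring
  have hδexp : δ = ι (D0 f1) * ι (D1 f2) - ι (D1 f1) * ι (D0 f2) := by
    simp only [δ, map_sub, map_mul]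
  have hv1 := hvan f1 ⟨by rw [hself, map_zero]; ring, by rw [← hδexp, hγδ]; ring⟩
  have hv2 := hvan f2 ⟨by
      rw [hΘ.antisymm, map_neg, ← hγδ, hδexp]; ring, by rw [hself, map_zero]; ring⟩
  have hfinal : ∀ f g, ι (Θ f g) = γ * (ι (D0 f) * ι (D1 g) - ι (D1 f) * ι (D0 g)) := by
    intro f g
    have h3 := hvan f ⟨by
        have := hv1 f
        rw [hΘ.antisymm, map_neg]
        linear_combination -this, by
        have := hv2 f
        rw [hΘ.antisymm, map_neg]
        linear_combination -this⟩ g
    linear_combination h3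
  -- the denominators of `γ • D1`
  have hden : ∀ x, ∃ s, s ∉ m ∧ ∃ t, ι s * (γ * ι (D1 x)) = ι t := by
    intro f
    obtain ⟨s, hs, c0, c1, hrel⟩ := hspan (Θd f)
    refine ⟨s, hs, - c0, ?_⟩
    have hrel' : ∀ g, ι s * ι (Θ f g) = ι c0 * ι (D0 g) + ι c1 * ι (D1 g) := by
      intro g
      have h1 := congrArg (fun D : Derivation ℂ A A => ι (D g)) hrel
      simpa only [Derivation.smul_apply, Derivation.add_apply, smul_eq_mul, hΘd, map_add, map_mul]
        using h1
    have h2 := hcramer (ι c0 + ι s * γ * ι (D1 f)) (ι c1 - ι s * γ * ι (D0 f))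
      (by
        have := hrel' f1
        rw [hfinal] at this
        linear_combination -this)
      (by
        have := hrel' f2
        rw [hfinal] at this
        linear_combination -this)
    rw [map_neg]
    linear_combination h2.1
  obtain ⟨s, hs, D', hD'⟩ := exists_derivation_of_denominators (K := K) m (fun x => γ * ι (D1 x))
    (fun x y => by simp only [map_add]; ring)
    (fun c x => by
      have h1 : D1 (algebraMap ℂ A c * x) = algebraMap ℂ A c * D1 x := by
        rw [← Algebra.smul_def, Derivation.map_smul, Algebra.smul_def]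
      simp only [h1, map_mul]
      ring)
    (fun x y => by
      simp only [Derivation.leibniz, smul_eq_mul, map_add, map_mul]
      ring)
    hden
  obtain ⟨s', hs', c0, c1, hrel⟩ := hspan D'
  have hrel' : ∀ g, ι s' * (ι s * (γ * ι (D1 g))) = ι c0 * ι (D0 g) + ι c1 * ι (D1 g) := by
    intro g
    have h1 := congrArg (fun D : Derivation ℂ A A => ι (D g)) hrel
    simp only [Derivation.smul_apply, Derivation.add_apply, smul_eq_mul, map_add, map_mul] at h1
    rw [← h1, hD' g]
  have h2 := hcramer (ι c0) (ι c1 - ι s' * ι s * γ)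
    (by
      have := hrel' f1
      linear_combination -this)
    (by
      have := hrel' f2
      linear_combination -this)
  refine ⟨D0, D1, c1, s' * s, ?_, fun f g => hιinj ?_⟩
  · intro h
    rcases hm.mem_or_mem h with h | h
    · exact hs' h
    · exact hs h
  · rw [map_mul, map_mul, hfinal, map_mul ι c1, map_sub, map_mul, map_mul]
    linear_combination (- (ι (D0 f) * ι (D1 g) - ι (D1 f) * ι (D0 g))) * h2.2

end Extract

end Vale.Agent.Lib.P266_helper23
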