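import Vale.Agent.Lib.P266_helper23.Defs

open DirectSum

namespace Vale.Agent.Lib.P266_helper23

section Graded

variable {R : Type*} [CommRing R] [Algebra ℂ R] (𝒜 : ℕ → Submodule ℂ R) [GradedAlgebra 𝒜]

/-- The Euler linear map of an `ℕ`-grading. -/
noncomputable def eulerLin : R →ₗ[ℂ] R :=
  (DirectSum.toModule ℂ ℕ R (fun n => ((n : ℂ)) • (𝒜 n).subtype)) ∘ₗ
    (DirectSum.decomposeLinearEquiv 𝒜).toLinearMap

theorem eulerLin_of_mem {n : ℕ} {x : R} (hx : x ∈ 𝒜 n) : eulerLin 𝒜 x = (n : ℂ) • x := by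
  have h : DirectSum.decompose 𝒜 x = DirectSum.of (fun i => 𝒜 i) n ⟨x, hx⟩ :=
    DirectSum.decompose_of_mem 𝒜 hx
  simp only [eulerLin, LinearMap.comp_apply, LinearEquiv.coe_coe, DirectSum.decomposeLinearEquiv_apply]
  rw [h]
  have := DirectSum.toModule_lof (R := ℂ) (M := fun i => 𝒜 i) (N := R)
    (φ := fun n => ((n : ℂ)) • (𝒜 n).subtype) n ⟨x, hx⟩
  rw [DirectSum.lof_eq_of] at this
  rw [this]
  simp

/-- The Euler derivation of an `ℕ`-grading. -/
noncomputable def euler : Derivation ℂ R R :=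
  Derivation.mk' (eulerLin 𝒜) (by
    intro a b
    induction a using DirectSum.Decomposition.inductionOn 𝒜 with
    | zero => simp
    | add a a' ha ha' =>
      rw [add_mul, map_add, ha, ha', map_add]
      simp only [smul_eq_mul]
      ring
    | homogeneous a =>
      induction b using DirectSum.Decomposition.inductionOn 𝒜 with
      | zero => simp
      | add b b' hb hb' =>
        rw [mul_add, map_add, hb, hb', map_add]
        simp only [smul_eq_mul]
        ring
      | homogeneous b =>
        rename_i i j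
        rw [eulerLin_of_mem 𝒜 (SetLike.mul_mem_graded a.2 b.2), eulerLin_of_mem 𝒜 a.2,
          eulerLin_of_mem 𝒜 b.2]
        simp only [Nat.cast_add, smul_eq_mul, Algebra.smul_def, map_add]
        ring)

theorem euler_of_mem {n : ℕ} {x : R} (hx : x ∈ 𝒜 n) : euler 𝒜 x = (n : ℂ) • x :=
  eulerLin_of_mem 𝒜 hx

variable {𝒜}

/-- If `a * b` has degree `i + j`, `b` is nonzero of degree `j`, in a domain, then `a` has degree
`i`. -/
theorem mem_of_mul_mem [IsDomain R] {a b : R} {i j : ℕ} (hb : b ∈ 𝒜 j) (hb0 : b ≠ 0)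
    (h : a * b ∈ 𝒜 (i + j)) : a ∈ 𝒜 i := by
  classical
  have hcomp : ∀ l, l ≠ i → (DirectSum.decompose 𝒜 a l : R) = 0 := by
    intro l hl
    have h1 : ((DirectSum.decompose 𝒜 (a * b)) (l + j) : R) =
        (DirectSum.decompose 𝒜 a l : R) * b :=
      DirectSum.coe_decompose_mul_add_of_right_mem 𝒜 hb
    have h2 : ((DirectSum.decompose 𝒜 (a * b)) (l + j) : R) = 0 :=
      DirectSum.decompose_of_mem_ne 𝒜 h (by omega)
    rw [h2] at h1
    exact (mul_eq_zero.mp h1.symm).resolve_right hb0
  have hsum := DirectSum.sum_support_decompose 𝒜 a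
  rw [← hsum]
  refine Submodule.sum_mem _ fun l hl => ?_
  by_cases hli : l = i
  · subst hli
    exact SetLike.coe_mem _
  · rw [hcomp l hli]
    exact Submodule.zero_mem _

/-- If `a * b` has degree `n` and `b` is nonzero of degree `j > n`, in a domain, then `a = 0`. -/
theorem eq_zero_of_mul_mem_lt [IsDomain R] {a b : R} {n j : ℕ} (hb : b ∈ 𝒜 j) (hb0 : b ≠ 0)
    (h : a * b ∈ 𝒜 n) (hn : n < j) : a = 0 := by
  classical
  have hcomp : ∀ l, (DirectSum.decompose 𝒜 a l : R) = 0 := by
    intro l
    have h1 : ((DirectSum.decompose 𝒜 (a * b)) (l + j) : R) =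
        (DirectSum.decompose 𝒜 a l : R) * b :=
      DirectSum.coe_decompose_mul_add_of_right_mem 𝒜 hb
    have h2 : ((DirectSum.decompose 𝒜 (a * b)) (l + j) : R) = 0 :=
      DirectSum.decompose_of_mem_ne 𝒜 h (by omega)
    rw [h2] at h1
    exact (mul_eq_zero.mp h1.symm).resolve_right hb0
  have hsum := DirectSum.sum_support_decompose 𝒜 a
  rw [← hsum]
  exact Finset.sum_eq_zero fun l _ => hcomp l

/-- A bivector that vanishes on pairs of homogeneous elements vanishes. -/
theorem biderivation_eq_zero_of_homogeneous {B : R → R → R} (hB : IsAltBider B)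
    (h : ∀ i j f g, f ∈ 𝒜 i → g ∈ 𝒜 j → B f g = 0) (f g : R) : B f g = 0 := by
  have hz : ∀ y, B 0 y = 0 := fun y => by
    have := hB.add_left 0 0 y
    simpa using this
  have hzr : ∀ y, B y 0 = 0 := fun y => by
    rw [hB.antisymm, hz, neg_zero]
  have hrad : ∀ x y z, B x (y + z) = B x y + B x z := fun x y z => by
    rw [hB.antisymm, hB.add_left, hB.antisymm y x, hB.antisymm z x]
    ring
  induction f using DirectSum.Decomposition.inductionOn 𝒜 with
  | zero => exact hz g
  | add a a' ha ha' => rw [hB.add_left, ha, ha', add_zero]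
  | homogeneous a =>
    induction g using DirectSum.Decomposition.inductionOn 𝒜 with
    | zero => exact hzr _
    | add b b' hb hb' => rw [hrad, hb, hb', add_zero]
    | homogeneous b => exact h _ _ _ _ a.2 b.2

/-- The evaluation at the vertex. -/
theorem exists_ev (h0 : ∀ x ∈ 𝒜 0, ∃ c : ℂ, x = algebraMap ℂ R c) [Nontrivial R] :
    ∃ ev : R →ₐ[ℂ] ℂ, (∀ n, 0 < n → ∀ x ∈ 𝒜 n, ev x = 0) ∧
      ∀ x ∈ 𝒜 0, x = algebraMap ℂ R (ev x) := by
  classical
  have hinj : Function.Injective (algebraMap ℂ R) := FaithfulSMul.algebraMap_injective ℂ R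
  have hex : ∀ x : R, ∃ c : ℂ, ((DirectSum.decompose 𝒜 x) 0 : R) = algebraMap ℂ R c :=
    fun x => h0 _ (SetLike.coe_mem _)
  choose ev hev using hex
  let P := GradedRing.projZeroRingHom 𝒜
  have hP : ∀ x, P x = algebraMap ℂ R (ev x) := hev
  let evR : R →+* ℂ :=
    { toFun := ev
      map_one' := by
        apply hinj
        rw [← hP, map_one, map_one]
      map_mul' := fun x y => by
        apply hinj
        rw [← hP, map_mul, map_mul, hP, hP]
      map_zero' := by
        apply hinj
        rw [← hP, map_zero, map_zero]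
      map_add' := fun x y => by
        apply hinj
        rw [← hP, map_add, map_add, hP, hP] }
  refine ⟨{ evR with
    commutes' := fun c => by
      apply hinj
      change algebraMap ℂ R (ev (algebraMap ℂ R c)) = _
      rw [← hP]
      change ((DirectSum.decompose 𝒜 (algebraMap ℂ R c)) 0 : R) = _
      rw [DirectSum.decompose_of_mem_same 𝒜 (SetLike.algebraMap_mem_graded 𝒜 c)]
      rfl }, ?_, ?_⟩
  · intro n hn x hx
    apply hinj
    change algebraMap ℂ R (ev x) = _
    rw [← hP, map_zero]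
    change ((DirectSum.decompose 𝒜 x) 0 : R) = 0
    exact DirectSum.decompose_of_mem_ne 𝒜 hx (by omega)
  · intro x hx
    change x = algebraMap ℂ R (ev x)
    rw [← hP]
    change x = ((DirectSum.decompose 𝒜 x) 0 : R)
    rw [DirectSum.decompose_of_mem_same 𝒜 hx]

end Graded

end Vale.Agent.Lib.P266_helper23
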