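import Vale.Agent.Lib.P266_helper23.Core
import Vale.Agent.Lib.P266_helper23.Extract

namespace Vale.Agent.Lib.P266_helper23

/-- The main theorem, see the hand-in. -/
theorem not_nonempty_basis
    {A R : Type*} [CommRing A] [IsDomain A] [Algebra ℂ A] [Algebra.FiniteType ℂ A]
    [CommRing R] [IsDomain R] [IsIntegrallyClosed R] [Algebra ℂ R] [Algebra.FiniteType ℂ R]
    (𝒜 : ℕ → Submodule ℂ R) [GradedAlgebra 𝒜]
    (h𝒜0 : ∀ x ∈ 𝒜 0, ∃ c : ℂ, x = algebraMap ℂ R c)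
    (y : Fin 2 → R) (deg : Fin 2 → ℕ) (hdeg : ∀ i, 0 < deg i) (hy : ∀ i, y i ∈ 𝒜 (deg i))
    (hyalg : AlgebraicIndependent ℂ y)
    (hint : (MvPolynomial.aeval y : MvPolynomial (Fin 2) ℂ →ₐ[ℂ] R).toRingHom.IsIntegral)
    (F : ℕ → Ideal A) (φ : ℕ → A → R) (hG : IsAssocGraded F 𝒜 φ)
    (m : Ideal A) [m.IsMaximal] (hm : F 1 = m)
    (hstable : ∀ (D : Derivation ℂ A A) (n : ℕ) (x : A), x ∈ F n → D x ∈ F n)
    (π : R → R → R) (k : ℕ) (hπ : IsCanonicalBivector 𝒜 π k)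
    (Θ : A → A → A) (hΘ : IsAltBider Θ)
    (hΘ1 : ∀ i j x y, x ∈ F i → y ∈ F j → Θ x y ∈ F (i + j + k))
    (hΘ2 : ∀ i j x y, x ∈ F i → y ∈ F j → φ (i + j + k) (Θ x y) = π (φ i x) (φ j y))
    (d : ℕ) (hgap : ∀ j, 0 < j → j < d → 𝒜 j = ⊥) (hk : k ≤ 2 * d + 1) :
    ¬ Nonempty (Module.Basis (Fin 2) (Localization.AtPrime m)
      (LocalizedModule m.primeCompl (Derivation ℂ A A))) := by
  rintro ⟨b⟩
  obtain ⟨D0, D1, c, w, hw, hrel⟩ := exists_relation m b Θ hΘ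
  have C : Ctx F 𝒜 φ π k Θ y deg :=
    ⟨hG, hπ, h𝒜0, hdeg, hy, hyalg, hint, hstable, hΘ1, hΘ2⟩
  exact C.core D0 D1 c w (by rwa [hm]) hrel d hgap hk

end Vale.Agent.Lib.P266_helper23
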