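import Vale.Agent.Lib.P266.Eval
import Vale.Agent.Lib.P266_helper23.Graded

open DirectSum

namespace Vale.Agent.Lib.P266_helper23

section Wedge

variable {R : Type*} [CommRing R] [Algebra ℂ R]

/-- The wedge of two derivations is an alternating biderivation. -/
theorem isAltBider_wedge (D D' : Derivation ℂ R R) :
    IsAltBider (fun f g => D f * D' g - D g * D' f) where
  add_left f g h := by simp only [map_add]; ring
  smul_left c f h := by simp only [Derivation.map_smul, smul_sub, smul_mul_assoc, mul_smul_comm]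
  mul_left f g h := by simp only [Derivation.leibniz, smul_eq_mul]; ring
  antisymm f g := by ring

end Wedge

section Radial

variable {R : Type*} [CommRing R] [IsDomain R] [Algebra ℂ R]
  {𝒜 : ℕ → Submodule ℂ R} [GradedAlgebra 𝒜] {π : R → R → R} {k : ℕ}

/-- The coefficient of `D ∧ D'` with respect to a canonical bivector, as a linear form in `D'`. -/
theorem exists_form (hπ : IsCanonicalBivector 𝒜 π k) (D : Derivation ℂ R R) :
    ∃ ω : Derivation ℂ R R →ₗ[R] R, ∀ (D' : Derivation ℂ R R) (f g : R),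
      D f * D' g - D g * D' f = ω D' * π f g := by
  classical
  obtain ⟨f0, g0, h0⟩ := hπ.ne_zero
  have hex := fun D' : Derivation ℂ R R => hπ.generates _ (isAltBider_wedge D D')
  choose c hc using hex
  have huniq : ∀ (D' : Derivation ℂ R R) (r : R),
      (∀ f g, D f * D' g - D g * D' f = r * π f g) → c D' = r := by
    intro D' r hr
    have h1 := hc D' f0 g0
    have h2 := hr f0 g0
    exact mul_right_cancel₀ h0 (h1.symm.trans h2)
  refine ⟨⟨⟨c, fun D1 D2 => huniq _ _ fun f g => ?_⟩, fun r D1 => huniq _ _ fun f g => ?_⟩,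
    fun D' f g => hc D' f g⟩
  · have h1 := hc D1 f g
    have h2 := hc D2 f g
    rw [add_mul, ← h1, ← h2, Derivation.add_apply, Derivation.add_apply]
    ring
  · have h1 := hc D1 f g
    simp only [RingHom.id_apply, smul_eq_mul, Derivation.smul_apply]
    rw [mul_assoc, ← h1]
    ring

variable [Algebra.FiniteType ℂ R] [IsIntegrallyClosed R]

/-- A homogeneous derivation of degree `n ≤ k` wedges to zero with the Euler field. -/
theorem wedge_euler_eq_zero (hπ : IsCanonicalBivector 𝒜 π k)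
    (h0 : ∀ x ∈ 𝒜 0, ∃ c : ℂ, x = algebraMap ℂ R c)
    (y : Fin 2 → R) (deg : Fin 2 → ℕ) (hdeg : ∀ i, 0 < deg i) (hy : ∀ i, y i ∈ 𝒜 (deg i))
    (hyalg : AlgebraicIndependent ℂ y)
    (hint : (MvPolynomial.aeval y : MvPolynomial (Fin 2) ℂ →ₐ[ℂ] R).toRingHom.IsIntegral)
    (Δ : Derivation ℂ R R) {n : ℕ} (hn : n ≤ k) (hΔ : ∀ i r, r ∈ 𝒜 i → Δ r ∈ 𝒜 (i + n))
    (f g : R) : Δ f * euler 𝒜 g - Δ g * euler 𝒜 f = 0 := by
  classical
  obtain ⟨ω, hω⟩ := exists_form hπ Δ
  -- a homogeneous pair on which `π` does not vanish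
  have hpair : ∃ i j f0 g0, f0 ∈ 𝒜 i ∧ g0 ∈ 𝒜 j ∧ π f0 g0 ≠ 0 := by
    by_contra hcon
    push Not at hcon
    obtain ⟨f1, g1, h1⟩ := hπ.ne_zero
    exact h1 (biderivation_eq_zero_of_homogeneous hπ.bider
      (fun i j f g hf hg => hcon i j f g hf hg) f1 g1)
  obtain ⟨i, j, f0, g0, hf0, hg0, hne⟩ := hpair
  have hdegπ : π f0 g0 ∈ 𝒜 (i + j + k) := hπ.degree i j f0 g0 hf0 hg0
  have hmul : ω (euler 𝒜) * π f0 g0 ∈ 𝒜 (i + j + n) := by
    rw [← hω, euler_of_mem 𝒜 hf0, euler_of_mem 𝒜 hg0]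
    have h1 : Δ f0 ∈ 𝒜 (i + n) := hΔ i f0 hf0
    have h2 : Δ g0 ∈ 𝒜 (j + n) := hΔ j g0 hg0
    have h3 : Δ f0 * (j : ℂ) • g0 ∈ 𝒜 (i + j + n) := by
      have := SetLike.mul_mem_graded h1 ((𝒜 j).smul_mem (j : ℂ) hg0)
      have he : i + n + j = i + j + n := by omega
      rwa [he] at this
    have h4 : Δ g0 * (i : ℂ) • f0 ∈ 𝒜 (i + j + n) := by
      have := SetLike.mul_mem_graded h2 ((𝒜 i).smul_mem (i : ℂ) hf0)
      have he : j + n + i = i + j + n := by omega
      rwa [he] at this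
    exact Submodule.sub_mem _ h3 h4
  -- the value of the form at the Euler field vanishes
  have hzero : ω (euler 𝒜) = 0 := by
    rcases lt_or_eq_of_le hn with hlt | heq
    · exact eq_zero_of_mul_mem_lt hdegπ hne hmul (by omega)
    · subst heq
      have hmem : ω (euler 𝒜) ∈ 𝒜 0 := by
        apply mem_of_mul_mem hdegπ hne
        rwa [zero_add]
      obtain ⟨ev, hev0, hev1⟩ := exists_ev h0
      have htrace := Vale.Agent.Lib.P266.eval_omega_eq_zero y hyalg hint (euler 𝒜) (fun l => by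
        refine ⟨MvPolynomial.C ((deg l : ℕ) : ℂ) * MvPolynomial.X l, by simp, ?_⟩
        rw [euler_of_mem 𝒜 (hy l)]
        simp [Algebra.smul_def]) ev (fun l => hev0 _ (hdeg l) _ (hy l)) ω
      rw [hev1 _ hmem, htrace, map_zero]
  rw [hω, hzero, zero_mul]

/-- **Low degree derivations are radial.** A homogeneous derivation of degree `n ≤ k` of a
normal graded ring with canonical bivector of degree `k` is a homogeneous multiple of the Euler
field. -/
theorem exists_radial (hπ : IsCanonicalBivector 𝒜 π k)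
    (h0 : ∀ x ∈ 𝒜 0, ∃ c : ℂ, x = algebraMap ℂ R c)
    (y : Fin 2 → R) (deg : Fin 2 → ℕ) (hdeg : ∀ i, 0 < deg i) (hy : ∀ i, y i ∈ 𝒜 (deg i))
    (hyalg : AlgebraicIndependent ℂ y)
    (hint : (MvPolynomial.aeval y : MvPolynomial (Fin 2) ℂ →ₐ[ℂ] R).toRingHom.IsIntegral)
    (Δ : Derivation ℂ R R) {n : ℕ} (hn : n ≤ k) (hΔ : ∀ i r, r ∈ 𝒜 i → Δ r ∈ 𝒜 (i + n)) :
    ∃ p ∈ 𝒜 n, ∀ i r, r ∈ 𝒜 i → Δ r = (i : ℂ) • (p * r) := by
  classical
  have hnoeth : IsNoetherianRing R := Algebra.FiniteType.isNoetherianRing ℂ R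
  have hw := wedge_euler_eq_zero hπ h0 y deg hdeg hy hyalg hint Δ hn hΔ
  obtain ⟨d0, hd0, y0, hy0, hy0ne⟩ : ∃ d0, 0 < d0 ∧ ∃ y0, y0 ∈ 𝒜 d0 ∧ y0 ≠ 0 :=
    ⟨deg 0, hdeg 0, y 0, hy 0, hyalg.ne_zero 0⟩
  -- the formula with the element `y0`
  have hform : ∀ i r, r ∈ 𝒜 i → algebraMap ℂ R (d0 : ℂ) * (Δ r * y0) =
      algebraMap ℂ R (i : ℂ) * (Δ y0 * r) := by
    intro i r hr
    have h1 := hw r y0
    rw [euler_of_mem 𝒜 hr, euler_of_mem 𝒜 hy0, Algebra.smul_def, Algebra.smul_def] at h1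
    linear_combination h1
  have hD0 : IsUnit (algebraMap ℂ R (d0 : ℂ)) := by
    have : (d0 : ℂ) ≠ 0 := by exact_mod_cast hd0.ne'
    exact (isUnit_iff_ne_zero.mpr this).map _
  -- the rational function
  let K := FractionRing R
  have hιinj : Function.Injective (algebraMap R K) := IsFractionRing.injective R K
  have hden : algebraMap R K (algebraMap ℂ R (d0 : ℂ) * y0) ≠ 0 :=
    (map_ne_zero_iff _ hιinj).mpr (mul_ne_zero hD0.ne_zero hy0ne)
  let c : K := algebraMap R K (Δ y0) / algebraMap R K (algebraMap ℂ R (d0 : ℂ) * y0)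
  have hc : ∀ i r, r ∈ 𝒜 i → algebraMap R K (Δ r) =
      algebraMap R K (algebraMap ℂ R (i : ℂ)) * (c * algebraMap R K r) := by
    intro i r hr
    have h1 := congrArg (algebraMap R K) (hform i r hr)
    have hcdef : c * algebraMap R K (algebraMap ℂ R (d0 : ℂ) * y0) = algebraMap R K (Δ y0) :=
      div_mul_cancel₀ _ hden
    apply mul_right_cancel₀ hden
    simp only [map_mul] at h1 hcdef ⊢
    linear_combination h1 - (algebraMap R K (algebraMap ℂ R (i : ℂ)) * algebraMap R K r) * hcdef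
  -- the ideal of positive degree elements
  let I : Ideal R := Ideal.span {f | ∃ i, 0 < i ∧ f ∈ 𝒜 i}
  have hI : ∀ x ∈ I, ∃ x' ∈ I, c * algebraMap R K x = algebraMap R K x' := by
    intro x hx
    induction hx using Submodule.span_induction with
    | mem x hx =>
      obtain ⟨i, hi, hxi⟩ := hx
      have hiC : (i : ℂ) ≠ 0 := by exact_mod_cast hi.ne'
      refine ⟨algebraMap ℂ R ((i : ℂ)⁻¹) * Δ x, ?_, ?_⟩
      · refine Ideal.mul_mem_left _ _ (Ideal.subset_span ⟨i + n, by omega, hΔ i x hxi⟩)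
      · rw [map_mul, hc i x hxi, ← mul_assoc, ← map_mul, ← map_mul, inv_mul_cancel₀ hiC]
        simp
    | zero => exact ⟨0, I.zero_mem, by simp⟩
    | add a b _ _ ha hb =>
      obtain ⟨a', ha', h1⟩ := ha
      obtain ⟨b', hb', h2⟩ := hb
      exact ⟨a' + b', I.add_mem ha' hb', by rw [map_add, mul_add, h1, h2, map_add]⟩
    | smul a b _ hb =>
      obtain ⟨b', hb', h2⟩ := hb
      refine ⟨a * b', I.mul_mem_left _ hb', ?_⟩
      rw [smul_eq_mul, map_mul, map_mul, ← h2]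
      ring
  let N : Submodule R K := Submodule.map (Algebra.linearMap R K) I
  have hNne : N ≠ ⊥ := by
    intro h
    have h1 : algebraMap R K y0 ∈ N :=
      ⟨y0, Ideal.subset_span ⟨d0, hd0, hy0⟩, rfl⟩
    rw [h, Submodule.mem_bot] at h1
    exact hy0ne (hιinj (by simpa using h1))
  have hNfg : N.FG := Submodule.FG.map _ (IsNoetherian.noetherian I)
  have hcint : IsIntegral R c := by
    refine isIntegral_of_smul_mem_submodule N hNne hNfg c ?_
    rintro _ ⟨x, hx, rfl⟩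
    obtain ⟨x', hx', h1⟩ := hI x hx
    exact ⟨x', hx', by simpa using h1.symm⟩
  obtain ⟨p, hp⟩ := IsIntegrallyClosed.isIntegral_iff.mp hcint
  have hrel : ∀ i r, r ∈ 𝒜 i → Δ r = (i : ℂ) • (p * r) := by
    intro i r hr
    apply hιinj
    rw [hc i r hr, ← hp, Algebra.smul_def, map_mul, map_mul]
  refine ⟨p, ?_, hrel⟩
  have h1 := hrel d0 y0 hy0
  have hd0' : (d0 : ℂ) ≠ 0 := by exact_mod_cast hd0.ne'
  have h2 : p * y0 = ((d0 : ℂ)⁻¹) • Δ y0 := by
    rw [h1, smul_smul, inv_mul_cancel₀ hd0', one_smul]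
  refine mem_of_mul_mem hy0 hy0ne ?_
  rw [h2]
  refine Submodule.smul_mem _ _ ?_
  have := hΔ d0 y0 hy0
  rwa [add_comm] at this

end Radial

end Vale.Agent.Lib.P266_helper23
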