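import Vale.Agent.Lib.P266_helper23.Radial

open DirectSum

namespace Vale.Agent.Lib.P266_helper23

section Basic

variable {A R : Type*} [CommRing A] [CommRing R] [Algebra ℂ A] [Algebra ℂ R]
  {F : ℕ → Ideal A} {𝒜 : ℕ → Submodule ℂ R} {φ : ℕ → A → R}

namespace IsAssocGraded

theorem F_le (hG : IsAssocGraded F 𝒜 φ) {i j : ℕ} (h : i ≤ j) : F j ≤ F i := by
  induction j, h using Nat.le_induction with
  | base => exact le_rfl
  | succ n _ ih => exact (hG.F_anti n).trans ih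

theorem F_mul' (hG : IsAssocGraded F 𝒜 φ) {i j l : ℕ} (hl : l = i + j) {x y : A} (hx : x ∈ F i)
    (hy : y ∈ F j) : x * y ∈ F l := by
  subst hl
  exact hG.F_mul i j x y hx hy

theorem φ_mul' (hG : IsAssocGraded F 𝒜 φ) {i j l : ℕ} (hl : l = i + j) {x y : A} (hx : x ∈ F i)
    (hy : y ∈ F j) : φ l (x * y) = φ i x * φ j y := by
  subst hl
  exact hG.φ_mul i j x y hx hy

theorem φ_zero (hG : IsAssocGraded F 𝒜 φ) (n : ℕ) : φ n 0 = 0 := by
  have h := hG.φ_smul n 0 0 (F n).zero_mem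
  simpa using h

theorem φ_neg (hG : IsAssocGraded F 𝒜 φ) {n : ℕ} {x : A} (hx : x ∈ F n) : φ n (-x) = - φ n x := by
  have h := hG.φ_smul n (-1) x hx
  simpa using h

theorem φ_sub (hG : IsAssocGraded F 𝒜 φ) {n : ℕ} {x y : A} (hx : x ∈ F n) (hy : y ∈ F n) :
    φ n (x - y) = φ n x - φ n y := by
  rw [sub_eq_add_neg, hG.φ_add n x (-y) hx ((F n).neg_mem hy), hG.φ_neg hy, sub_eq_add_neg]

/-- Elements with the same symbol differ by an element of the next step. -/
theorem sub_mem_of_φ_eq (hG : IsAssocGraded F 𝒜 φ) {n : ℕ} {x y : A} (hx : x ∈ F n) (hy : y ∈ F n)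
    (h : φ n x = φ n y) : x - y ∈ F (n + 1) := by
  rw [← hG.φ_eq_zero n _ ((F n).sub_mem hx hy), hG.φ_sub hx hy, h, sub_self]

end IsAssocGraded

/-- The derivation `D` raises the filtration by `n`. -/
def HasOrder (F : ℕ → Ideal A) (D : Derivation ℂ A A) (n : ℕ) : Prop :=
  ∀ i x, x ∈ F i → D x ∈ F (i + n)

end Basic

section Symbol

variable {A R : Type*} [CommRing A] [CommRing R] [Algebra ℂ A] [Algebra ℂ R]
  {F : ℕ → Ideal A} {𝒜 : ℕ → Submodule ℂ R} [GradedAlgebra 𝒜] {φ : ℕ → A → R}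

/-- The symbol of a derivation raising the filtration by `n`: a homogeneous derivation of degree
`n` of the associated graded ring. -/
theorem exists_symbol (hG : IsAssocGraded F 𝒜 φ) (D : Derivation ℂ A A) {n : ℕ}
    (hD : HasOrder F D n) :
    ∃ Δ : Derivation ℂ R R, (∀ i r, r ∈ 𝒜 i → Δ r ∈ 𝒜 (i + n)) ∧
      ∀ i x, x ∈ F i → Δ (φ i x) = φ (i + n) (D x) := by
  classical
  have hlift : ∀ i (r : 𝒜 i), ∃ x, x ∈ F i ∧ φ i x = r := fun i r => by
    obtain ⟨x, hx, hxr⟩ := hG.φ_surj i r r.2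
    exact ⟨x, hx, hxr⟩
  choose lift hliftF hliftφ using hlift
  have hkey : ∀ i x, x ∈ F i → ∀ x', x' ∈ F i → φ i x = φ i x' →
      φ (i + n) (D x) = φ (i + n) (D x') := by
    intro i x hx x' hx' h
    have h1 := hG.sub_mem_of_φ_eq hx hx' h
    have h2 := hD (i + 1) _ h1
    have hidx : i + 1 + n = i + n + 1 := by omega
    rw [hidx, map_sub] at h2
    have h3 := (hG.φ_eq_zero (i + n) _ ((F _).sub_mem (hD i x hx) (hD i x' hx'))).mpr h2
    rw [hG.φ_sub (hD i x hx) (hD i x' hx')] at h3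
    exact sub_eq_zero.mp h3
  let L : ∀ i, 𝒜 i →ₗ[ℂ] R := fun i =>
    { toFun := fun r => φ (i + n) (D (lift i r))
      map_add' := fun r r' => by
        have h1 : lift i r + lift i r' ∈ F i := (F i).add_mem (hliftF i r) (hliftF i r')
        have h2 : φ i (lift i (r + r')) = φ i (lift i r + lift i r') := by
          rw [hG.φ_add i _ _ (hliftF i r) (hliftF i r'), hliftφ, hliftφ, hliftφ]
          rfl
        rw [hkey i _ (hliftF i (r + r')) _ h1 h2, map_add,
          hG.φ_add _ _ _ (hD i _ (hliftF i r)) (hD i _ (hliftF i r'))]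
      map_smul' := fun c r => by
        have h1 : c • lift i r ∈ F i := by
          rw [Algebra.smul_def]
          exact Ideal.mul_mem_left _ _ (hliftF i r)
        have h2 : φ i (lift i (c • r)) = φ i (c • lift i r) := by
          rw [hG.φ_smul i c _ (hliftF i r), hliftφ, hliftφ]
          rfl
        rw [hkey i _ (hliftF i (c • r)) _ h1 h2, Derivation.map_smul,
          hG.φ_smul _ c _ (hD i _ (hliftF i r))]
        rfl }
  have hLφ : ∀ i x (hx : x ∈ F i), L i ⟨φ i x, hG.φ_mem i x hx⟩ = φ (i + n) (D x) := by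
    intro i x hx
    exact hkey i _ (hliftF i _) x hx (hliftφ i _)
  let Δlin : R →ₗ[ℂ] R :=
    (DirectSum.toModule ℂ ℕ R L) ∘ₗ (DirectSum.decomposeLinearEquiv 𝒜).toLinearMap
  have hΔlin : ∀ i r (hr : r ∈ 𝒜 i), Δlin r = L i ⟨r, hr⟩ := by
    intro i r hr
    have h : DirectSum.decompose 𝒜 r = DirectSum.of (fun i => 𝒜 i) i ⟨r, hr⟩ :=
      DirectSum.decompose_of_mem 𝒜 hr
    simp only [Δlin, LinearMap.comp_apply, LinearEquiv.coe_coe, DirectSum.decomposeLinearEquiv_apply]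
    rw [h]
    have := DirectSum.toModule_lof (R := ℂ) (M := fun i => 𝒜 i) (N := R) (φ := L) i ⟨r, hr⟩
    rw [DirectSum.lof_eq_of] at this
    exact this
  have hΔφ : ∀ i x, x ∈ F i → Δlin (φ i x) = φ (i + n) (D x) := by
    intro i x hx
    rw [hΔlin i _ (hG.φ_mem i x hx), hLφ i x hx]
  have hleib : ∀ a b : R, Δlin (a * b) = a • Δlin b + b • Δlin a := by
    intro a b
    induction a using DirectSum.Decomposition.inductionOn 𝒜 with
    | zero => simp
    | add a a' ha ha' =>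
      rw [add_mul, map_add, ha, ha', map_add]
      simp only [smul_eq_mul]
      ring
    | homogeneous a =>
      induction b using DirectSum.Decomposition.inductionOn 𝒜 with
      | zero => simp
      | add b b' hb hb' =>
        rw [mul_add, map_add, hb, hb', map_add]
        simp only [smul_eq_mul]
        ring
      | homogeneous b =>
        rename_i i j
        obtain ⟨x, hx, hxa⟩ := hG.φ_surj i a a.2
        obtain ⟨y, hy, hyb⟩ := hG.φ_surj j b b.2
        rw [← hxa, ← hyb, ← hG.φ_mul i j x y hx hy, hΔφ _ _ (hG.F_mul i j x y hx hy),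
          hΔφ _ _ hx, hΔφ _ _ hy, Derivation.leibniz]
        have hl : i + j + n = i + (j + n) := by omega
        have hl' : i + j + n = j + (i + n) := by omega
        have h1 : x • D y ∈ F (i + j + n) := hG.F_mul' hl hx (hD j y hy)
        have h2 : y • D x ∈ F (i + j + n) := hG.F_mul' hl' hy (hD i x hx)
        rw [hG.φ_add _ _ _ h1 h2]
        simp only [smul_eq_mul]
        rw [hG.φ_mul' hl hx (hD j y hy), hG.φ_mul' hl' hy (hD i x hx)]
  refine ⟨Derivation.mk' Δlin hleib, ?_, hΔφ⟩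
  intro i r hr
  obtain ⟨x, hx, hxr⟩ := hG.φ_surj i r hr
  change Δlin r ∈ 𝒜 (i + n)
  rw [← hxr, hΔφ i x hx]
  exact hG.φ_mem _ _ (hD i x hx)

variable [IsDomain R] [Algebra.FiniteType ℂ R] [IsIntegrallyClosed R] {π : R → R → R} {k : ℕ}

/-- Derivations of order at most `k` have radial symbol. -/
theorem exists_radial_symbol (hG : IsAssocGraded F 𝒜 φ) (hπ : IsCanonicalBivector 𝒜 π k)
    (h0 : ∀ x ∈ 𝒜 0, ∃ c : ℂ, x = algebraMap ℂ R c)
    (y : Fin 2 → R) (deg : Fin 2 → ℕ) (hdeg : ∀ i, 0 < deg i) (hy : ∀ i, y i ∈ 𝒜 (deg i))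
    (hyalg : AlgebraicIndependent ℂ y)
    (hint : (MvPolynomial.aeval y : MvPolynomial (Fin 2) ℂ →ₐ[ℂ] R).toRingHom.IsIntegral)
    (D : Derivation ℂ A A) {n : ℕ} (hn : n ≤ k) (hD : HasOrder F D n) :
    ∃ p ∈ 𝒜 n, ∀ i x, x ∈ F i → φ (i + n) (D x) = (i : ℂ) • (p * φ i x) := by
  obtain ⟨Δ, hΔ1, hΔ2⟩ := exists_symbol hG D hD
  obtain ⟨p, hp, hp2⟩ := exists_radial hπ h0 y deg hdeg hy hyalg hint Δ hn hΔ1
  refine ⟨p, hp, fun i x hx => ?_⟩
  rw [← hΔ2 i x hx, hp2 i _ (hG.φ_mem i x hx)]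

end Symbol

end Vale.Agent.Lib.P266_helper23
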